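import Vale.Agent.Lib.P065.Halv

namespace Vale.Agent.Results.P065.NearConvex

open Finset Vale.Agent.P065

theorem result (m t : ℕ) (P : Fin m ⊕ Fin t → ℝ × ℝ)
    (hc : ∀ i j k : Fin m, i < j → j < k →
      0 < orient (P (Sum.inl i)) (P (Sum.inl j)) (P (Sum.inl k))) :
    -- directed edges with exactly `a` points on the right
    (∀ a : ℕ, (univ.filter (fun e : (Fin m ⊕ Fin t) × (Fin m ⊕ Fin t) =>
      e.1 ≠ e.2 ∧ right P e.1 e.2 = a)).card ≤ (3 * t + 1) * (m + t)) ∧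
    -- ordered pairs spanning a halving line
    ((∀ p q r : Fin m ⊕ Fin t, p ≠ q → q ≠ r → p ≠ r → orient (P p) (P q) (P r) ≠ 0) →
      (univ.filter (fun e : (Fin m ⊕ Fin t) × (Fin m ⊕ Fin t) =>
        e.1 ≠ e.2 ∧ right P e.1 e.2 = right P e.2 e.1)).card ≤ (3 * t + 1) * (m + t)) :=
  ⟨fun a => main P hc a, fun hgen => halving P hc hgen⟩

end Vale.Agent.Results.P065.NearConvex
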